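import Vale.Agent.Lib.P295.Classes

namespace Vale.Agent.Results.P295.Tfae_lowdegree

open MvPolynomial Vale.Agent.Lib.P295

/-- For a polynomial `f ∈ ℂ[x_1,…,x_n]` of total degree at most two, or weighted homogeneous for
positive integer weights, the three properties are equivalent: coordinate, stable coordinate,
no critical point in `ℂ^n`. -/
theorem result {n : ℕ} (f : MvPolynomial (Fin n) ℂ)
    (hclass : f.totalDegree ≤ 2 ∨
      ∃ (w : Fin n → ℕ) (d : ℕ), (∀ i, 0 < w i) ∧ IsWeightedHomogeneous w f d) :
    List.TFAE [IsCoordinate f, IsStableCoordinate f,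
      ∀ x : Fin n → ℂ, ∃ i, eval x (pderiv i f) ≠ 0] :=
  tfae_of_class f hclass

end Vale.Agent.Results.P295.Tfae_lowdegree
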