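import Vale.Agent.Results.P295.A_Venereau_family
import Vale.Agent.Results.P295.A_Venereau_gt
import Vale.Agent.Results.P295.Tfae_lowdegree

namespace Vale.Agent.Results.P295.A00_master

open MvPolynomial Vale.Agent.Lib.P295

/-- (1) With `x = X 0, y = X 1, z = X 2, u = X 3`: if `e < m` or `3 e ≤ 2 m` then for every
`φ ∈ ℂ[s,t]` the polynomial `y + x^m (x^e z + y φ(x, y u + z²))` is the image of `y` under a
`ℂ`-algebra automorphism of `ℂ[x,y,z,u]` fixing `x`. (2) For a polynomial `f ∈ ℂ[x_1,…,x_n]` of total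
degree at most two, or weighted homogeneous for positive integer weights, the three properties
are equivalent: coordinate, stable coordinate, no critical point in `ℂ^n`. -/
theorem result :
    (∀ (m e : ℕ), (e < m ∨ 3 * e ≤ 2 * m) → ∀ φ : MvPolynomial (Fin 2) ℂ,
      ∃ Φ : MvPolynomial (Fin 4) ℂ ≃ₐ[ℂ] MvPolynomial (Fin 4) ℂ, Φ (X 0) = X 0 ∧
        Φ (X 1) = X 1 + X 0 ^ m * (X 0 ^ e * X 2 + X 1 * aeval ![X 0, X 1 * X 3 + X 2 ^ 2] φ)) ∧
    (∀ {n : ℕ} (f : MvPolynomial (Fin n) ℂ),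
      (f.totalDegree ≤ 2 ∨
        ∃ (w : Fin n → ℕ) (d : ℕ), (∀ i, 0 < w i) ∧ IsWeightedHomogeneous w f d) →
      List.TFAE [IsCoordinate f, IsStableCoordinate f,
        ∀ x : Fin n → ℂ, ∃ i, eval x (pderiv i f) ≠ 0]) :=
  ⟨fun m e h φ => h.elim (fun h => Vale.Agent.Results.P295.A_Venereau_gt.result m e h φ)
      (fun h => Vale.Agent.Results.P295.A_Venereau_family.result m e h φ),
    fun f hclass => Vale.Agent.Results.P295.Tfae_lowdegree.result f hclass⟩

end Vale.Agent.Results.P295.A00_master
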