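import Vale.Agent.Lib.P295.Family

namespace Vale.Agent.Results.P295.A_Venereau_family

open MvPolynomial

/-- With `x = X 0, y = X 1, z = X 2, u = X 3`: if `3 e ≤ 2 m` then for every `φ ∈ ℂ[s,t]` the
polynomial `y + x^m (x^e z + y φ(x, y u + z²))` is the image of `y` under a `ℂ`-algebra automorphism
of `ℂ[x,y,z,u]` fixing `x`. For `e = 1`, `φ = t`, `m ≥ 2` these are the Vénéreau polynomials. -/
theorem result (m e : ℕ) (h : 3 * e ≤ 2 * m) (φ : MvPolynomial (Fin 2) ℂ) :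
    ∃ Φ : MvPolynomial (Fin 4) ℂ ≃ₐ[ℂ] MvPolynomial (Fin 4) ℂ, Φ (X 0) = X 0 ∧
      Φ (X 1) = X 1 + X 0 ^ m * (X 0 ^ e * X 2 + X 1 * aeval ![X 0, X 1 * X 3 + X 2 ^ 2] φ) :=
  Vale.Agent.Lib.P295.exists_equiv_family m e h φ

end Vale.Agent.Results.P295.A_Venereau_family
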